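import Mathlib

/-!
# P228: one-dimensional core lemmas

A continuous injective self-map `f` of the real line such that some sequence of positive even
iterates converges pointwise to the identity satisfies `f ∘ f = id`.
Multiples `p ^ k • g` tend to `0` in the `p`-adic integers.
-/

namespace Vale.Agent.Lib.P228

open Filter Topology

theorem iterate_ge_of_strictMono {ψ : ℝ → ℝ} (hψ : StrictMono ψ) {t : ℝ} (ht : t < ψ t) :
    ∀ n : ℕ, 1 ≤ n → ψ t ≤ ψ^[n] t := by
  intro n hn
  induction n, hn using Nat.le_induction with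
  | base => simp
  | succ n _ ih =>
    rw [Function.iterate_succ_apply']
    exact hψ.monotone (ht.le.trans ih)

theorem iterate_le_of_strictMono {ψ : ℝ → ℝ} (hψ : StrictMono ψ) {t : ℝ} (ht : ψ t < t) :
    ∀ n : ℕ, 1 ≤ n → ψ^[n] t ≤ ψ t := by
  intro n hn
  induction n, hn using Nat.le_induction with
  | base => simp
  | succ n _ ih =>
    rw [Function.iterate_succ_apply']
    exact hψ.monotone (ih.trans ht.le)

/-- The one-dimensional rigidity lemma. -/
theorem sq_eq_id_of_recurrent {f : ℝ → ℝ} (hc : Continuous f) (hi : Function.Injective f)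
    (N : ℕ → ℕ) (hN : ∀ k, 1 ≤ N k)
    (hlim : ∀ t, Tendsto (fun k => (f ∘ f)^[N k] t) atTop (𝓝 t)) (t : ℝ) :
    f (f t) = t := by
  have hψ : StrictMono (f ∘ f) := by
    rcases hc.strictMono_of_inj hi with h | h
    · exact h.comp h
    · exact h.comp h
  by_contra hne
  rcases lt_or_gt_of_ne hne with h | h
  · have h1 : ∀ k, (f ∘ f)^[N k] t ≤ (f ∘ f) t :=
      fun k => iterate_le_of_strictMono hψ h (N k) (hN k)
    have h2 : t ≤ (f ∘ f) t := le_of_tendsto' (hlim t) h1
    exact absurd h (not_lt.2 h2)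
  · have h1 : ∀ k, (f ∘ f) t ≤ (f ∘ f)^[N k] t :=
      fun k => iterate_ge_of_strictMono hψ h (N k) (hN k)
    have h2 : (f ∘ f) t ≤ t := ge_of_tendsto' (hlim t) h1
    exact absurd h (not_lt.2 h2)

/-- `p ^ k • g → 0` in the `p`-adic integers. -/
theorem tendsto_pow_nsmul (p : ℕ) [Fact p.Prime] (g : ℤ_[p]) :
    Tendsto (fun k : ℕ => (p ^ k) • g) atTop (𝓝 0) := by
  have h1 : Tendsto (fun k : ℕ => (p : ℤ_[p]) ^ k) atTop (𝓝 0) := by
    apply tendsto_pow_atTop_nhds_zero_of_norm_lt_one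
    rw [PadicInt.norm_p]
    have hp : (1 : ℝ) < p := by exact_mod_cast (Fact.out : p.Prime).one_lt
    exact inv_lt_one_of_one_lt₀ hp
  have h2 : Tendsto (fun k : ℕ => (p : ℤ_[p]) ^ k * g) atTop (𝓝 (0 * g)) :=
    h1.mul_const g
  simpa [nsmul_eq_mul] using h2

end Vale.Agent.Lib.P228
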